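import Vale.Agent.P235.R2.H341.KrSpec

/-!
P235-M (helper910): row K3 of the Klein-Plotkin-Rao rows for graphs without a `K_r` minor.
-/

set_option autoImplicit false

namespace Vale.Agent.P235.R2.H910.Kr3

open Vale.Agent.P235 Vale.Agent.P235.Kpr Vale.Agent.P235.Kr SimpleGraph

variable {V : Type}

theorem chop_le {H : SimpleGraph V} {f : V → ℝ} {Δ θ : ℝ} : chop H f Δ θ ≤ H := fun _ _ h => h.1

/-- the graph after `n` chops -/
noncomputable def T (F : SimpleGraph V → V → ℝ) (Δ : ℝ) (N : ℕ) :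
    (n : ℕ) → SimpleGraph V → (Fin n → Fin N) → SimpleGraph V
  | 0, H, _ => H
  | n + 1, H, ω => T F Δ N n (chop H (F H) Δ (((ω 0 : Fin N) : ℕ) * Δ / N)) (fun i => ω i.succ)

theorem chopped_T {G : SimpleGraph V} {ℓ : Sym2 V → ℝ} {F : SimpleGraph V → V → ℝ}
    {R : SimpleGraph V → V → V} (hF : ∀ H, H ≤ G → Pot H ℓ (F H) (R H)) (Δ : ℝ) (N : ℕ) :
    ∀ (n : ℕ) (H : SimpleGraph V), H ≤ G → ∀ ω, Chopped ℓ Δ n H (T F Δ N n H ω)
  | 0, H, _, _ => Chopped.zero H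
  | n + 1, H, hH, _ => Chopped.succ (F H) (R H) _ (hF H hH)
      (chopped_T hF Δ N n _ (chop_le.trans hH) _)

open Classical in
theorem count_T [Finite V] (h3 : RowCount) {G : SimpleGraph V} {ℓ : Sym2 V → ℝ}
    {F : SimpleGraph V → V → ℝ} {R : SimpleGraph V → V → V}
    (hF : ∀ H, H ≤ G → Pot H ℓ (F H) (R H)) {Δ : ℝ} {N : ℕ} (hΔ : 0 < Δ) (hN : 0 < N) {u v : V}
    (hp : 0 ≤ ℓ s(u, v)) :
    ∀ (n : ℕ) (H : SimpleGraph V), H ≤ G → H.Adj u v →
      ∑ ω, (if (T F Δ N n H ω).Adj u v then (0 : ℝ) else 1) ≤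
        n * (N : ℝ) ^ n * (ℓ s(u, v) / Δ + 1 / N)
  | 0, H, _, hA => by
    simp [T, hA]
  | n + 1, H, hH, hA => by
    have hN' : (0 : ℝ) < N := by exact_mod_cast hN
    have hlam : 0 ≤ ℓ s(u, v) / Δ + 1 / N := by positivity
    have e1 : ∑ ω, (if (T F Δ N (n + 1) H ω).Adj u v then (0 : ℝ) else 1) =
        ∑ k : Fin N, ∑ ω : Fin n → Fin N,
          (if (T F Δ N n (chop H (F H) Δ ((k : ℕ) * Δ / N)) ω).Adj u v then (0 : ℝ) else 1) := by
      rw [← Fintype.sum_prod_type']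
      refine (Fintype.sum_equiv (Fin.consEquiv fun _ => Fin N) _ _ ?_).symm
      rintro ⟨k, ω⟩
      rfl
    rw [e1]
    have e2 : ∀ k : Fin N, ∑ ω : Fin n → Fin N,
        (if (T F Δ N n (chop H (F H) Δ ((k : ℕ) * Δ / N)) ω).Adj u v then (0 : ℝ) else 1) ≤
        (if ⌊(F H u + (k : ℕ) * Δ / N) / Δ⌋ ≠ ⌊(F H v + (k : ℕ) * Δ / N) / Δ⌋ then
          (N : ℝ) ^ n else 0) + n * (N : ℝ) ^ n * (ℓ s(u, v) / Δ + 1 / N) := by
      intro k
      split_ifs with hk
      · have h1 : ∑ ω : Fin n → Fin N, (if (T F Δ N n (chop H (F H) Δ ((k : ℕ) * Δ / N)) ω).Adj u v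
            then (0 : ℝ) else 1) ≤ ∑ _ω : Fin n → Fin N, (1 : ℝ) := by
          refine Finset.sum_le_sum fun ω _ => ?_
          split_ifs <;> norm_num
        refine h1.trans ?_
        rw [Finset.sum_const, Finset.card_univ, Fintype.card_fun, Fintype.card_fin,
          Fintype.card_fin, nsmul_eq_mul, mul_one, Nat.cast_pow]
        have : 0 ≤ n * (N : ℝ) ^ n * (ℓ s(u, v) / Δ + 1 / N) := by positivity
        linarith
      · rw [ne_eq, not_not] at hk
        rw [zero_add]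
        exact count_T h3 hF hΔ hN hp n _ (chop_le.trans hH) ⟨hA, hk⟩
    refine (Finset.sum_le_sum fun k _ => e2 k).trans ?_
    rw [Finset.sum_add_distrib, Finset.sum_const, Finset.card_univ, Fintype.card_fin, nsmul_eq_mul]
    have h2 := h3 (F H u) (F H v) (ℓ s(u, v)) Δ N ((hF H hH).lip u v hA) hΔ hN
    have e3 : ∑ k : Fin N, (if ⌊(F H u + (k : ℕ) * Δ / N) / Δ⌋ ≠
        ⌊(F H v + (k : ℕ) * Δ / N) / Δ⌋ then (N : ℝ) ^ n else 0) =
        ({k : Fin N | ⌊(F H u + (k : ℕ) * Δ / N) / Δ⌋ ≠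
          ⌊(F H v + (k : ℕ) * Δ / N) / Δ⌋}.ncard : ℝ) * (N : ℝ) ^ n := by
      rw [← Finset.sum_filter, Finset.sum_const, nsmul_eq_mul, Set.ncard_eq_toFinset_card',
        Set.toFinset_ofPred]
    rw [e3]
    have h4 : (0 : ℝ) ≤ (N : ℝ) ^ n := by positivity
    have h5 := mul_le_mul_of_nonneg_right h2 h4
    refine (add_le_add_left h5 _).trans (le_of_eq ?_)
    push_cast
    field_simp
    ring

theorem rowK3 (hK2 : RowK2) (h2 : RowPot) (h3 : RowCount) : RowK3 := by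
  classical
  intro V _ G ℓ r hc hK hℓ Δ N hΔ hN
  have : Nonempty V := hc.nonempty
  have hN' : (0 : ℝ) < N := by exact_mod_cast hN
  have hpot : ∀ H : SimpleGraph V, H ≤ G → ∃ f r, Pot H ℓ f r := fun H hH =>
    h2 V H ℓ fun e he => hℓ e (edgeSet_mono hH he)
  have : Nonempty (V → V) := ⟨id⟩
  choose! F R hF using hpot
  obtain ⟨H0, hH0⟩ : ∃ H0 : SimpleGraph V, ∀ u v, H0.Adj u v ↔ G.Adj u v ∧ ℓ s(u, v) ≤ Δ :=
    ⟨{ Adj := fun u v => G.Adj u v ∧ ℓ s(u, v) ≤ Δ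
       symm := ⟨fun u v h => ⟨h.1.symm, by rw [Sym2.eq_swap]; exact h.2⟩⟩
       loopless := ⟨fun _ h => h.1.ne rfl⟩ }, fun _ _ => Iff.rfl⟩
  have hle : H0 ≤ G := fun u v h => ((hH0 u v).1 h).1
  refine ⟨fun ω v => ((T F Δ N (r + 2) H0 ω).connectedComponentMk v).out, fun ω u v h => ?_,
    fun u v huv => ?_⟩
  · have h1 : (T F Δ N (r + 2) H0 ω).Reachable u v := by
      have h' := congrArg (T F Δ N (r + 2) H0 ω).connectedComponentMk h
      have q : ∀ z : (T F Δ N (r + 2) H0 ω).ConnectedComponent,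
          (T F Δ N (r + 2) H0 ω).connectedComponentMk (Quot.out z) = z := fun z => Quot.out_eq z
      rw [q, q] at h'
      exact ConnectedComponent.exact h'
    exact hK2 V G H0 _ ℓ Δ r hc hK hℓ hle hΔ (fun a b hab => ((hH0 a b).1 hab).2)
      (chopped_T hF Δ N (r + 2) H0 hle ω) u v h1
  · have hp : 0 ≤ ℓ s(u, v) := (hℓ _ (G.mem_edgeSet.2 huv)).le
    have e1 : ({ω : Fin (r + 2) → Fin N |
        ((T F Δ N (r + 2) H0 ω).connectedComponentMk u).out ≠
          ((T F Δ N (r + 2) H0 ω).connectedComponentMk v).out}.ncard : ℝ) ≤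
        ∑ ω : Fin (r + 2) → Fin N, (if (T F Δ N (r + 2) H0 ω).Adj u v then (0 : ℝ) else 1) := by
      have e2 : ∑ ω : Fin (r + 2) → Fin N,
          (if (T F Δ N (r + 2) H0 ω).Adj u v then (0 : ℝ) else 1) =
          ({ω : Fin (r + 2) → Fin N | ¬ (T F Δ N (r + 2) H0 ω).Adj u v}.ncard : ℝ) := by
        rw [Set.ncard_eq_toFinset_card', Set.toFinset_ofPred, Finset.card_filter]
        push_cast
        refine Finset.sum_congr rfl fun ω _ => ?_
        split_ifs <;> rfl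
      rw [e2]
      refine Nat.cast_le.2 (Set.ncard_le_ncard (fun ω hω hA => hω ?_) (Set.toFinite _))
      rw [ConnectedComponent.sound hA.reachable]
    by_cases hs : ℓ s(u, v) ≤ Δ
    · refine e1.trans ?_
      have := count_T h3 hF hΔ hN hp (r + 2) H0 hle ((hH0 u v).2 ⟨huv, hs⟩)
      push_cast at this
      exact this
    · push Not at hs
      refine e1.trans ?_
      have h1 : ∑ ω : Fin (r + 2) → Fin N, (if (T F Δ N (r + 2) H0 ω).Adj u v then (0 : ℝ)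
          else 1) ≤ ∑ _ω : Fin (r + 2) → Fin N, (1 : ℝ) := by
        refine Finset.sum_le_sum fun ω _ => ?_
        split_ifs <;> norm_num
      refine h1.trans ?_
      rw [Finset.sum_const, Finset.card_univ, Fintype.card_fun, Fintype.card_fin,
        Fintype.card_fin, nsmul_eq_mul, mul_one, Nat.cast_pow]
      have h2 : 1 ≤ ℓ s(u, v) / Δ := by
        rw [le_div_iff₀ hΔ]
        linarith
      have h4 : (0 : ℝ) < 1 / N := by positivity
      have h5 : (0 : ℝ) ≤ (N : ℝ) ^ (r + 2) := by positivity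
      have h6 : (1 : ℝ) ≤ ((r : ℝ) + 2) * (ℓ s(u, v) / Δ + 1 / N) := by
        have : (0 : ℝ) ≤ r := Nat.cast_nonneg r
        nlinarith
      nlinarith

end Vale.Agent.P235.R2.H910.Kr3
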