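import Vale.Agent.P235.R2.H341.KrSpec
import Vale.Agent.P235.R2.RED.Bags2

/-!
P235-M (helper910): row K2 of the Klein-Plotkin-Rao rows for graphs without a `K_r` minor.
-/

set_option autoImplicit false

namespace Vale.Agent.P235.R2.H910.Kr2

open Vale.Agent.P235 Vale.Agent.P235.Kpr Vale.Agent.P235.Kr SimpleGraph

variable {V : Type}

theorem chop_le {H : SimpleGraph V} {f : V → ℝ} {Δ θ : ℝ} : chop H f Δ θ ≤ H := fun _ _ h => h.1

theorem conn_singleton (G : SimpleGraph V) (a : V) : (G.induce ({a} : Set V)).Connected := by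
  have : Nonempty ↥({a} : Set V) := ⟨⟨a, rfl⟩⟩
  refine ⟨fun u v => ?_⟩
  have huv : u = v := Subtype.ext (u.2.trans v.2.symm)
  rw [huv]

theorem exists_far {H : SimpleGraph V} {d : V → ℝ} {R Δ : ℝ}
    (hstep : ∀ u v, H.Adj u v → d v ≤ d u + Δ) {a b : V} (w : H.Walk a b) (ha : d a ≤ R)
    (hb : R < d b) : ∃ z, H.Reachable a z ∧ R < d z ∧ d z ≤ R + Δ := by
  induction w with
  | nil => exact absurd hb (not_lt.2 ha)
  | @cons a c b hac p ih =>
    by_cases hcR : d c ≤ R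
    · obtain ⟨z, h1, h2, h3⟩ := ih hcR hb
      exact ⟨z, hac.reachable.trans h1, h2, h3⟩
    · refine ⟨c, hac.reachable, not_le.1 hcR, ?_⟩
      have := hstep a c hac
      linarith

theorem stage_of_chopped [Finite V] (h1 : RowK1) {G : SimpleGraph V} {ℓ : Sym2 V → ℝ} {Δ : ℝ}
    {s q : ℕ} {x : Fin (s + 2) → V} (hc : G.Connected) (hℓ : ∀ e ∈ G.edgeSet, 0 < ℓ e)
    (hΔ : 0 < Δ) (hx : ∀ k l, k ≠ l → 8 * (q : ℝ) * Δ < pathDist G ℓ (x k) (x l))
    {n : ℕ} {H H' : SimpleGraph V} (hch : Chopped ℓ Δ n H H') (hn : n ≤ q) (hH : H ≤ G)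
    (hle : ∀ u v, H.Adj u v → ℓ s(u, v) ≤ Δ)
    (h0 : ∃ A X y, StageR G ℓ Δ x H' 0 A X y 0) :
    ∃ A X y, StageR G ℓ Δ x H n A X y (4 * (n : ℝ) * Δ) := by
  induction hch with
  | zero H => simpa using h0
  | @succ n H H' f r θ hP hch ih =>
    obtain ⟨A, X, y, hS⟩ := ih (by omega) (chop_le.trans hH) (fun u v h => hle u v h.1) h0
    obtain ⟨A', X', y', hS'⟩ := h1 V G H ℓ Δ θ (4 * (n : ℝ) * Δ) s x n A X y f r hc hℓ hH hΔ
      (by positivity) hle hP (fun k l hkl => by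
        have h2 := hx k l hkl
        have h3 : ((n : ℝ) + 1) * (8 * Δ) ≤ (q : ℝ) * (8 * Δ) :=
          mul_le_mul_of_nonneg_right (by exact_mod_cast hn) (by positivity)
        linarith) hS
    refine ⟨A', X', y', ?_⟩
    have e : 4 * ((n + 1 : ℕ) : ℝ) * Δ = 4 * (n : ℝ) * Δ + 4 * Δ := by
      push_cast
      ring
    rw [e]
    exact hS'

theorem rowK2 (h1 : RowK1) : RowK2 := by
  intro V _ G H H' ℓ Δ r hc hK hℓ hH hΔ hle hch x y hxy
  by_contra hcon
  have hfar : 8 * ((r : ℝ) + 2) ^ 2 * Δ < pathDist G ℓ x y := not_le.1 hcon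
  have hd0 := Red.pd_self hℓ
  have hdc := Red.pd_comm hc hℓ
  have htri := Red.pd_tri hc hℓ
  have hle' : ∀ {n : ℕ} {H H' : SimpleGraph V}, Chopped ℓ Δ n H H' → H' ≤ H := by
    intro n H H' h
    induction h with
    | zero H => exact le_rfl
    | succ f r θ hP h ih => exact ih.trans chop_le
  have hH' : H' ≤ H := hle' hch
  have hstep : ∀ u v, H'.Adj u v → pathDist G ℓ x v ≤ pathDist G ℓ x u + Δ := by
    intro u v huv
    have h2 := Red.pd_adj hℓ (hH (hH' huv))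
    have h3 := htri x u v
    have h4 := hle u v (hH' huv)
    linarith
  obtain ⟨w⟩ := hxy
  have hr : (0 : ℝ) ≤ r := Nat.cast_nonneg r
  have hp : ∀ k : Fin (r + 2), ∃ z, H'.Reachable x z ∧
      (0 < (k : ℕ) → (k : ℕ) * (8 * ((r : ℝ) + 2) + 1) * Δ < pathDist G ℓ x z) ∧
      pathDist G ℓ x z ≤ (k : ℕ) * (8 * ((r : ℝ) + 2) + 1) * Δ + Δ := by
    intro k
    by_cases hk : (k : ℕ) = 0
    · refine ⟨x, Reachable.refl _, fun h => absurd hk h.ne', ?_⟩
      rw [hk, hd0]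
      simp [hΔ.le]
    · have hkr : ((k : ℕ) : ℝ) ≤ (r : ℝ) + 1 := by
        have : (k : ℕ) ≤ r + 1 := by omega
        exact_mod_cast this
      have hb : (k : ℕ) * (8 * ((r : ℝ) + 2) + 1) * Δ < pathDist G ℓ x y := by
        refine lt_of_le_of_lt ?_ hfar
        refine mul_le_mul_of_nonneg_right ?_ hΔ.le
        nlinarith
      obtain ⟨z, h2, h3, h4⟩ := exists_far (d := pathDist G ℓ x) hstep w
        (R := (k : ℕ) * (8 * ((r : ℝ) + 2) + 1) * Δ) (by rw [hd0]; positivity) hb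
      exact ⟨z, h2, fun _ => h3, h4⟩
  choose p hp1 hp2 hp3 using hp
  have hlt : ∀ k l : Fin (r + 2), k < l →
      8 * ((r + 2 : ℕ) : ℝ) * Δ < pathDist G ℓ (p k) (p l) := by
    intro k l hkl
    have hkl' : (k : ℕ) < (l : ℕ) := hkl
    have h2 := hp2 l (by omega)
    have h3 := hp3 k
    have h4 := htri x (p k) (p l)
    have h5 : ((k : ℕ) : ℝ) + 1 ≤ ((l : ℕ) : ℝ) := by exact_mod_cast hkl'
    have h6 : (((k : ℕ) : ℝ) + 1) * ((8 * ((r : ℝ) + 2) + 1) * Δ) ≤
        ((l : ℕ) : ℝ) * ((8 * ((r : ℝ) + 2) + 1) * Δ) :=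
      mul_le_mul_of_nonneg_right h5 (by positivity)
    push_cast
    linarith
  have hsep : ∀ k l : Fin (r + 2), k ≠ l →
      8 * ((r + 2 : ℕ) : ℝ) * Δ < pathDist G ℓ (p k) (p l) := by
    intro k l hkl
    rcases lt_or_gt_of_ne hkl with h | h
    · exact hlt k l h
    · rw [hdc]
      exact hlt l k h
  have S0 : StageR G ℓ Δ p H' 0 (fun _ => ∅) (fun k => {p k}) p 0 :=
    { aconn := fun j hj => absurd hj (Nat.not_lt_zero _)
      adisj := fun j hj => absurd hj (Nat.not_lt_zero _)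
      xconn := fun k => conn_singleton G (p k)
      ax := fun j hj => absurd hj (Nat.not_lt_zero _)
      adj := fun j hj => absurd hj (Nat.not_lt_zero _)
      xmem := fun k => rfl
      ymem := fun k => rfl
      ball := fun k v hv => by
        have : v = p k := hv
        rw [this, hd0]
      areach := fun j hj => absurd hj (Nat.not_lt_zero _)
      xreach := fun k v hv => by
        have : v = p k := hv
        rw [this]
        exact (hp1 0).symm.trans (hp1 k)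
      far := fun j hj => absurd hj (Nat.not_lt_zero _) }
  obtain ⟨A, X, y', hS⟩ := stage_of_chopped h1 hc hℓ hΔ hsep hch le_rfl hH hle ⟨_, _, _, S0⟩
  have hXd : ∀ k l : Fin (r + 2), k ≠ l → Disjoint (X k) (X l) := by
    intro k l hkl
    rw [Set.disjoint_left]
    intro v hv hv'
    have h3 := hS.ball k v hv
    have h4 := hS.ball l v hv'
    have h5 := htri (p k) v (p l)
    have h6 := hsep k l hkl
    rw [hdc v (p l)] at h5
    linarith
  have hcast : ∀ i : Fin r, (i : ℕ) < r + 2 := fun i => by omega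
  refine hK ⟨fun i => A i ∪ X ⟨i, hcast i⟩, fun i => ?_, fun i j hij => ?_, fun i j hij => ?_⟩
  · obtain ⟨a, ha, b, hb, hab⟩ := hS.adj i (hcast i) ⟨i, hcast i⟩
    exact connected_induce_union (hS.aconn i (hcast i)).preconnected
      (hS.xconn ⟨i, hcast i⟩).preconnected ha hb hab
  · have hij' : (i : ℕ) ≠ (j : ℕ) := fun h => hij (Fin.ext h)
    have hij'' : (⟨i, hcast i⟩ : Fin (r + 2)) ≠ ⟨j, hcast j⟩ := fun h => hij' (Fin.mk.inj h)
    rw [Set.disjoint_union_left, Set.disjoint_union_right, Set.disjoint_union_right]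
    exact ⟨⟨hS.adisj i (hcast i) j (hcast j) hij', hS.ax i (hcast i) _⟩,
      (hS.ax j (hcast j) _).symm, hXd _ _ hij''⟩
  · obtain ⟨a, ha, b, hb, hab⟩ := hS.adj i (hcast i) ⟨j, hcast j⟩
    exact ⟨a, Or.inl ha, b, Or.inr hb, hab⟩

end Vale.Agent.P235.R2.H910.Kr2
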